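import Vale.Agent.P189.Upper

namespace Vale.Agent.Results.P189.NotFixedPrice

open MeasureTheory Vale.Agent.P189

theorem result :
    ∃ (Γ : Type) (_ : Group Γ) (_ : Countable Γ)
      (X : Type) (_ : MeasurableSpace X) (_ : StandardBorelSpace X) (μ : Measure X)
      (_ : IsProbabilityMeasure μ) (_ : MulAction Γ X)
      (Y : Type) (_ : MeasurableSpace Y) (_ : StandardBorelSpace Y) (ν : Measure Y)
      (_ : IsProbabilityMeasure ν) (_ : MulAction Γ Y),
      IsFreePmp Γ μ ∧ IsFreePmp Γ ν ∧ cost Γ μ = ⊤ ∧ cost Γ ν < ⊤ :=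
  ⟨Gam, inferInstance, inferInstance, BX Gam, inferInstance, inferInstance, haarP _,
    inferInstance, shiftAct Gam, BX Gam × YY, inferInstance, inferInstance, haarP _,
    inferInstance, prodAct, shift_free, prod_free, shift_cost, prod_cost⟩

end Vale.Agent.Results.P189.NotFixedPrice
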